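import Vale.Agent.H15.P144.MainA

namespace Vale.Agent.Results.P144.NoUniversalityPointwise

open Vale.Agent.H15.P144

theorem result (hpub : PlusOnePoint) :
    ¬ UniversalityPt ∧ IsPotential V0 ∧ ∀ J > 0, ∀ l > 0, ¬ HasDataPt J V0 l :=
  ⟨not_universalityPt hpub, V0_isPotential, fun _ hJ _ hl => mainA hpub hJ hl⟩

end Vale.Agent.Results.P144.NoUniversalityPointwise
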